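import Vale.Agent.P192.R2.H360.R.Defs2

set_option linter.all false

/-! Row R10: bounded orbits give finite images of machines, and the converse. -/

namespace Vale.Agent.P192.R2.H311

open Vale.Agent.P192 Vale.Agent.P192.H437 Vale.Agent.P192.H593 Vale.Agent.P192.R2.H577
open Vale.Agent.P192.R2.H360.R
open scoped Pointwise

/-- machines with a larger window -/
theorem mach_mono {H A Q : Type} [Group H] {T T' : Finset H} (hT : T' ⊆ T)
    {g : Cf H A Q → Cf H A Q} (h : Mach T' g) : Mach T g := by
  obtain ⟨h1, h2, h3⟩ := h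
  refine ⟨fun z => hT (h1 z), fun z p hp => hT (h2 z p hp), ?_⟩
  intro z z' hq ht
  obtain ⟨h4, h5, h6⟩ := h3 z z' hq fun τ hτ => ht τ (hT hτ)
  refine ⟨h4, h5, fun τ hτ => ?_⟩
  by_cases hτ' : τ ∈ T'
  · exact h6 τ hτ'
  · have h7 : (g z).1 (z.2.1 * τ) = z.1 (z.2.1 * τ) := by
      by_contra hne
      have := h2 z _ hne
      rw [inv_mul_cancel_left] at this
      exact hτ' this
    have h8 : (g z').1 (z'.2.1 * τ) = z'.1 (z'.2.1 * τ) := by
      by_contra hne
      have := h2 z' _ hne
      rw [inv_mul_cancel_left] at this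
      exact hτ' this
    rw [h7, h8]
    exact ht τ hτ

/-- changes of the tape along an orbit -/
theorem tape_window {H A Q : Type} [Group H] [DecidableEq H] {G : Type} [Group G] {S : Set G}
    {T : Finset H} [MulAction G (Cf H A Q)] (hM : MA (H := H) (A := A) (Q := Q) G S T) {n : ℕ}
    (hn : ∀ x : Cf H A Q, ∀ y ∈ MulAction.orbit G x, x.2.1⁻¹ * y.2.1 ∈ T ^ n) (x : Cf H A Q)
    (g : G) : ∀ p, (g • x).1 p ≠ x.1 p → x.2.1⁻¹ * p ∈ T ^ (n + 1) := by
  have hg : g ∈ Subgroup.closure S := by rw [hM.gen]; trivial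
  have step : ∀ (s g' : G), (s ∈ S ∨ s⁻¹ ∈ S) →
      (∀ p, (g' • x).1 p ≠ x.1 p → x.2.1⁻¹ * p ∈ T ^ (n + 1)) →
      ∀ p, ((s * g') • x).1 p ≠ x.1 p → x.2.1⁻¹ * p ∈ T ^ (n + 1) := by
    intro s g' hs ih p hp
    by_cases h1 : (g' • x).1 p = x.1 p
    · have h2 : (s • (g' • x)).1 p ≠ (g' • x).1 p := by
        rw [h1, ← mul_smul]; exact hp
      have h3 := (hM.mach s hs).2.1 (g' • x) p h2
      have h4 := hn x (g' • x) ⟨g', rfl⟩
      have h5 : x.2.1⁻¹ * p = (x.2.1⁻¹ * (g' • x).2.1) * ((g' • x).2.1⁻¹ * p) := by group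
      rw [h5, pow_succ]
      exact Finset.mul_mem_mul h4 h3
    · exact ih p h1
  induction hg using Subgroup.closure_induction_left with
  | one => intro p hp; rw [one_smul] at hp; exact absurd rfl hp
  | mul_left s hs g' _ ih => exact step s g' (Or.inl hs) ih
  | inv_mul_cancel s hs g' _ ih => exact step s⁻¹ g' (Or.inr (by rw [inv_inv]; exact hs)) ih

/-- (R10) -/
theorem r10 : R10 := by
  intro h9 H A Q _ _ _ _ _
  classical
  constructor
  · intro hH G _ _ hG ρ hρ
    -- a finite generating set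
    obtain ⟨k, φ, hφ, -⟩ := ‹Group.IsFinitelyPresented G›.out
    let S : Set G := Set.range fun i : Fin k => φ (FreeGroup.of i)
    have hSf : S.Finite := Set.finite_range _
    have hSg : Subgroup.closure S = ⊤ := by
      have h1 : S = φ '' (Set.range (FreeGroup.of : Fin k → FreeGroup (Fin k))) := by
        rw [← Set.range_comp]; rfl
      rw [h1, ← MonoidHom.map_closure, FreeGroup.closure_range_of, ← MonoidHom.range_eq_map,
        MonoidHom.range_eq_top.2 hφ]
    -- the window
    choose W hW using hρ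
    have hSf' : (S ∪ S⁻¹).Finite := hSf.union hSf.inv
    let T0 : Finset H := hSf'.toFinset.biUnion W
    let T : Finset H := insert 1 (T0 ∪ T0.image fun τ => τ⁻¹)
    have hWT : ∀ s, (s ∈ S ∨ s⁻¹ ∈ S) → W s ⊆ T := by
      intro s hs τ hτ
      refine Finset.mem_insert_of_mem (Finset.mem_union_left _ ?_)
      refine Finset.mem_biUnion.2 ⟨s, ?_, hτ⟩
      rw [Set.Finite.mem_toFinset]
      rcases hs with hs | hs
      · exact Or.inl hs
      · exact Or.inr hs
    letI act : MulAction G (Cf H A Q) :=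
      { smul := fun g z => ρ g z
        one_smul := fun z => by change ρ 1 z = z; rw [map_one]; rfl
        mul_smul := fun g h z => by change ρ (g * h) z = ρ g (ρ h z); rw [map_mul]; rfl }
    have hsm : ∀ (g : G) (z : Cf H A Q), g • z = ρ g z := fun _ _ => rfl
    have hM : MA (H := H) (A := A) (Q := Q) G S T := by
      refine ⟨Finset.mem_insert_self _ _, ?_, hSf, hSg, ?_⟩
      · intro τ hτ
        rcases Finset.mem_insert.1 hτ with h | h
        · rw [h, inv_one]; exact Finset.mem_insert_self _ _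
        · rcases Finset.mem_union.1 h with h | h
          · exact Finset.mem_insert_of_mem (Finset.mem_union_right _
              (Finset.mem_image_of_mem _ h))
          · obtain ⟨σ, hσ, rfl⟩ := Finset.mem_image.1 h
            rw [inv_inv]
            exact Finset.mem_insert_of_mem (Finset.mem_union_left _ hσ)
      · intro s hs
        exact mach_mono (hWT s hs) (hW s)
    obtain ⟨n, hn⟩ := h9 H hH A Q G hG S T hM
    -- bounded orbits
    haveI := Fintype.ofFinite A
    haveI := Fintype.ofFinite Q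
    let K : ℕ := Fintype.card ((↥(T ^ (n + 1)) → A) × (↥(T ^ n)) × Q)
    have hK : ∀ x : Cf H A Q, (MulAction.orbit G x).encard ≤ K := by
      intro x
      let F : MulAction.orbit G x → (↥(T ^ (n + 1)) → A) × (↥(T ^ n)) × Q :=
        fun y => (fun τ => y.1.1 (x.2.1 * τ.1), ⟨x.2.1⁻¹ * y.1.2.1, hn x y.1 y.2⟩, y.1.2.2)
      have hF : Function.Injective F := by
        rintro ⟨y, hy⟩ ⟨y', hy'⟩ h
        have h1 : (fun τ : ↥(T ^ (n + 1)) => y.1 (x.2.1 * τ.1)) =
          fun τ : ↥(T ^ (n + 1)) => y'.1 (x.2.1 * τ.1) := congrArg Prod.fst h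
        have h2 : x.2.1⁻¹ * y.2.1 = x.2.1⁻¹ * y'.2.1 :=
          congrArg Subtype.val (congrArg (fun w => w.2.1) h)
        have h3 : y.2.2 = y'.2.2 := congrArg (fun w => w.2.2) h
        have h4 : y.1 = y'.1 := by
          funext p
          by_cases hp : x.2.1⁻¹ * p ∈ T ^ (n + 1)
          · have h5 := congrFun h1 ⟨_, hp⟩
            simp only [mul_inv_cancel_left] at h5
            exact h5
          · have h6 : ∀ w ∈ MulAction.orbit G x, w.1 p = x.1 p := by
              rintro _ ⟨g, rfl⟩
              by_contra hne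
              exact hp (tape_window hM hn x g p hne)
            rw [h6 y hy, h6 y' hy']
        exact Subtype.ext (Prod.ext h4 (Prod.ext (mul_left_cancel h2) h3))
      have h7 : Finite (MulAction.orbit G x) := Finite.of_injective F hF
      have h8 : Nat.card (MulAction.orbit G x) ≤ K := by
        have := Nat.card_le_card_of_injective F hF
        rwa [Nat.card_eq_fintype_card (α := (↥(T ^ (n + 1)) → A) × (↥(T ^ n)) × Q)] at this
      have h9 : (MulAction.orbit G x).Finite := h7
      rw [← h9.cast_ncard_eq, ← Nat.card_coe_set_eq]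
      exact_mod_cast h8
    obtain ⟨N, -, hNf, hN⟩ := Vale.Agent.P192.exists_kernel.{0, 0} G K
    have hle : N ≤ ρ.ker := by
      intro g hg
      rw [MonoidHom.mem_ker]
      ext1 z
      exact hN (Cf H A Q) z (hK z) g hg
    haveI := hNf
    haveI : ρ.ker.FiniteIndex := Subgroup.finiteIndex_of_le hle
    haveI : Finite (G ⧸ ρ.ker) := inferInstance
    exact Finite.of_equiv _ (QuotientGroup.quotientKerEquivRange ρ).toEquiv
  · intro h Γ _ hΓ hper f
    haveI := hΓ
    let ρ : Γ →* Equiv.Perm ((H → A) × H × Q) :=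
      { toFun := fun g =>
          { toFun := fun z => (z.1, z.2.1 * (f g)⁻¹, z.2.2)
            invFun := fun z => (z.1, z.2.1 * f g, z.2.2)
            left_inv := fun z => by simp
            right_inv := fun z => by simp }
        map_one' := by
          ext1 z
          change (z.1, z.2.1 * (f 1)⁻¹, z.2.2) = z
          rw [map_one, inv_one, mul_one]
        map_mul' := fun g g' => by
          ext1 z
          change (z.1, z.2.1 * (f (g * g'))⁻¹, z.2.2) = (z.1, z.2.1 * (f g')⁻¹ * (f g)⁻¹, z.2.2)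
          rw [map_mul, mul_inv_rev, mul_assoc] }
    have hρ : ∀ (g : Γ) (z : (H → A) × H × Q), ρ g z = (z.1, z.2.1 * (f g)⁻¹, z.2.2) :=
      fun _ _ => rfl
    have hfin : Finite ρ.range := by
      refine h Γ hper ρ fun g => ⟨{(f g)⁻¹}, ?_, ?_, ?_⟩
      · intro z
        rw [hρ, Finset.mem_singleton]
        simp
      · intro z p hp
        exact absurd rfl hp
      · intro z z' hq ht
        refine ⟨?_, hq, ?_⟩
        · rw [hρ, hρ]; simp
        · intro τ hτ
          exact ht τ hτ
    let t0 : H → A := fun _ => Classical.arbitrary A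
    let q0 : Q := Classical.arbitrary Q
    let Φ : ρ.range → H := fun σ => (((σ.1 : Equiv.Perm ((H → A) × H × Q)) (t0, 1, q0)).2.1)⁻¹
    have hΦ : (Set.range Φ).Finite := Set.finite_range Φ
    have hsub : (f.range : Set H) ⊆ Set.range Φ := by
      rintro _ ⟨g, rfl⟩
      refine ⟨⟨ρ g, g, rfl⟩, ?_⟩
      change ((ρ g (t0, 1, q0)).2.1)⁻¹ = f g
      rw [hρ, one_mul, inv_inv]
    exact (hΦ.subset hsub)

end Vale.Agent.P192.R2.H311
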